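import Vale.Agent.P046.Expect

/-!
P046: `E F_n ≤ C n^{3/2} √(log n)` and `P(F_n > x) ≤ C n^3 log n / x^2` for the number `F_n` of
edges left by the random triangle removal process.
-/

namespace Vale.Agent.Results.P046.EnergyBound

open MeasureTheory Vale.Agent.P046

theorem result :
    (∀ n : ℕ, ∀ G ∈ (finalGraph n).support, G.CliqueFree 3) ∧
    ∃ C : ℝ, 0 < C ∧ ∀ n : ℕ, 2 ≤ n →
      (∀ x : ℝ, 0 < x →
        ((finalEdges n).toMeasure {k : ℕ | x < k}).toReal ≤
          C * (n : ℝ) ^ 3 * Real.log n / x ^ 2) ∧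
      ∫ k, (k : ℝ) ∂(finalEdges n).toMeasure ≤
        C * (n : ℝ) ^ (3 / 2 : ℝ) * Real.sqrt (Real.log n) := by
  refine ⟨finalGraph_cliqueFree, 2000002, by norm_num, fun n hn => ⟨fun x hx => ?_, ?_⟩⟩
  · refine (tail_Kn n hn x hx).trans ?_
    have hn1 : (1 : ℝ) ≤ n := by exact_mod_cast (by omega : 1 ≤ n)
    have hlog : 0 ≤ Real.log n := Real.log_nonneg hn1
    refine div_le_div_of_nonneg_right ?_ (by positivity)
    have h : 0 ≤ (n : ℝ) ^ 3 * Real.log n := by positivity
    linarith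
  · exact expect_Kn n hn

end Vale.Agent.Results.P046.EnergyBound
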