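import Vale.Agent.P046S.F3

/-!
P046: `F_n / n^{3/2} → 1/(2√2)` in probability and in mean for the number `F_n` of edges left by the
random triangle removal process.
-/

namespace Vale.Agent.Results.P046.SharpConstant

open MeasureTheory Filter Vale.Agent.P046 Vale.Agent.P046S

theorem result :
    (∀ n : ℕ, ∀ G ∈ (finalGraph n).support, G.CliqueFree 3) ∧
    (∀ ε : ℝ, 0 < ε → Tendsto (fun n : ℕ => ((finalEdges n).toMeasure
      {k : ℕ | ε < |(k : ℝ) / (n : ℝ) ^ (3 / 2 : ℝ) - 1 / (2 * Real.sqrt 2)|}).toReal)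
      atTop (nhds 0)) ∧
    Tendsto (fun n : ℕ => (∫ k, (k : ℝ) ∂(finalEdges n).toMeasure) / (n : ℝ) ^ (3 / 2 : ℝ))
      atTop (nhds (1 / (2 * Real.sqrt 2))) := by
  refine ⟨finalGraph_cliqueFree, fun ε hε => conv_prob ε hε, ?_⟩
  exact conv_mean

end Vale.Agent.Results.P046.SharpConstant
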