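import Vale.Agent.P046LF.TailLF
import Vale.Agent.P046LF.LowerLF

/-!
P046: `E F_n = Θ(n^{3/2})` and the tail bound `P(F_n > x) ≤ C (n^{3/2} / x)^{3/2}` for the number
`F_n` of edges left by the random triangle removal process.
-/

namespace Vale.Agent.Results.P046.ThetaBound

open MeasureTheory Vale.Agent.P046 Vale.Agent.P046LF

theorem result :
    (∀ n : ℕ, ∀ G ∈ (finalGraph n).support, G.CliqueFree 3) ∧
    (∃ C : ℝ, 0 < C ∧ ∀ n : ℕ, 2 ≤ n → ∀ x : ℝ, 0 < x →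
      ((finalEdges n).toMeasure {k : ℕ | x < k}).toReal ≤
        C * ((n : ℝ) ^ (3 / 2 : ℝ) / x) ^ (3 / 2 : ℝ)) ∧
    (∃ c C : ℝ, 0 < c ∧ ∃ n0 : ℕ, 2 ≤ n0 ∧ ∀ n : ℕ, n0 ≤ n →
      c * (n : ℝ) ^ (3 / 2 : ℝ) ≤ ∫ k, (k : ℝ) ∂(finalEdges n).toMeasure ∧
      ∫ k, (k : ℝ) ∂(finalEdges n).toMeasure ≤ C * (n : ℝ) ^ (3 / 2 : ℝ)) := by
  refine ⟨finalGraph_cliqueFree, ?_, ?_⟩
  · obtain ⟨C, hC, h⟩ := tail_LF
    exact ⟨C, hC, fun n hn x hx => h n hn x hx⟩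
  · obtain ⟨C, hC, h⟩ := expect_LF
    obtain ⟨c, hc, n0, hn0, h'⟩ := expect_lower_LF
    exact ⟨c, C, hc, n0, hn0, fun n hn => ⟨h' n hn, h n (hn0.trans hn)⟩⟩

end Vale.Agent.Results.P046.ThetaBound
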